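import Vale.Agent.P121.Main

namespace Vale.Agent.Results.P121.NoMonge

open MeasureTheory Vale.Agent.P121
open scoped ContDiff

/-- In every dimension `d ≥ 2` (in particular `d = 3`) there is an absolutely continuous Borel
probability measure, with smooth compactly supported density and finite Kantorovich value, such
that every Monge plan costs strictly more than the Kantorovich value. -/
theorem result (d : ℕ) (hd : 2 ≤ d) :
    ∃ (μ : Measure (EuclideanSpace ℝ (Fin d))) (ρ : EuclideanSpace ℝ (Fin d) → ℝ),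
      IsProbabilityMeasure μ ∧ μ ≪ volume ∧
      ContDiff ℝ ∞ ρ ∧ HasCompactSupport ρ ∧ (∀ x, 0 ≤ ρ x) ∧
      μ = volume.withDensity (fun x => ENNReal.ofReal (ρ x)) ∧
      kantorovich μ < ⊤ ∧
      ∀ T₂ T₃ : EuclideanSpace ℝ (Fin d) → EuclideanSpace ℝ (Fin d),
        Measurable T₂ → Measurable T₃ → μ.map T₂ = μ → μ.map T₃ = μ →
        kantorovich μ < ∫⁻ x, coulomb x (T₂ x) (T₃ x) ∂μ := by
  have h01 : (⟨0, by omega⟩ : Fin d) ≠ ⟨1, by omega⟩ := by simp
  obtain ⟨μ, ⟨ρ, h1, h2, h3, h4⟩, h5, h6, h7⟩ :=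
    main (volume : Measure (EuclideanSpace ℝ (Fin d)))
      (e₁ := EuclideanSpace.single ⟨0, by omega⟩ 1) (e₂ := EuclideanSpace.single ⟨1, by omega⟩ 1)
      (by simp) (by simp) (by simp [EuclideanSpace.inner_single_left])
  refine ⟨μ, ρ, h5, ?_, h1, h2, h3, h4, h6, h7⟩
  rw [h4]
  exact withDensity_absolutelyContinuous _ _

end Vale.Agent.Results.P121.NoMonge
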